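import Mathlib

/-!
P315, Milestone 2, row M2-CLS: the clamped class chain `y (d+1) = min (c (d+1)) (y d + m)`
for an arbitrary sequence `c : ℕ → ℤ` (the classes with hysteresis of H869), started at the root
class `y 0 = kr`, together with its size and total variation bounds.
-/

set_option autoImplicit false

open Finset

namespace Vale.Agent.P315.H499

/-- The clamped class `d` levels below the root. -/
def yc (c : ℕ → ℤ) (kr m : ℤ) : ℕ → ℤ
  | 0 => kr
  | d + 1 => min (c (d + 1)) (yc c kr m d + m)

variable {c c' : ℕ → ℤ} {kr m : ℤ}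

@[simp] theorem yc_zero : yc c kr m 0 = kr := rfl

theorem yc_succ (d : ℕ) : yc c kr m (d + 1) = min (c (d + 1)) (yc c kr m d + m) := rfl

theorem yc_succ_le (d : ℕ) : yc c kr m (d + 1) ≤ yc c kr m d + m := min_le_right _ _

theorem yc_le (d : ℕ) : yc c kr m (d + 1) ≤ c (d + 1) := min_le_left _ _

/-- The chain depends only on the classes up to the level considered. -/
theorem yc_congr : ∀ d : ℕ, (∀ i, i ≤ d → c i = c' i) → yc c kr m d = yc c' kr m d
  | 0, _ => rfl
  | d + 1, h => by
    rw [yc_succ, yc_succ, h (d + 1) le_rfl, yc_congr d fun i hi => h i (hi.trans (Nat.le_succ d))]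

/-- If the level decreases by one, the logarithm of the width of class `y` (times `2^(m·level)`)
never increases: `y d - m d` is antitone. -/
theorem yc_width_antitone : Antitone fun d : ℕ => yc c kr m d - m * d := by
  refine antitone_nat_of_succ_le fun d => ?_
  have := yc_succ_le (c := c) (kr := kr) (m := m) d
  push_cast
  linarith [mul_add m (d : ℤ) 1]

/-- `L d` = base 2 logarithm of the density of the node `d` levels below the root. If the
classes satisfy `c - 3 ≤ L ≤ c`, the root class is at least `L 0` and the density is multiplied by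
at most `2 ^ m` per level, then `y - 3 ≤ L` below the root and `L ≤ y` everywhere. -/
theorem le_yc {L : ℕ → ℝ} {n : ℕ} (h0 : L 0 ≤ kr) (hc : ∀ d ≤ n, L d ≤ c d)
    (hstep : ∀ d < n, L (d + 1) ≤ L d + m) : ∀ d ≤ n, L d ≤ yc c kr m d := by
  intro d
  induction d with
  | zero => intro _; exact h0
  | succ d ih =>
    intro hd
    have h1 := ih (by omega)
    have h2 := hstep d (by omega)
    have h3 := hc (d + 1) hd
    rw [yc_succ]
    push_cast
    exact le_min h3 (by linarith)

theorem yc_sub_le {L : ℕ → ℝ} {b : ℝ} {d : ℕ} (hc : (c (d + 1) : ℝ) - b ≤ L (d + 1)) :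
    (yc c kr m (d + 1) : ℝ) - b ≤ L (d + 1) := by
  have h := yc_le (c := c) (kr := kr) (m := m) d
  have h' : (yc c kr m (d + 1) : ℝ) ≤ c (d + 1) := by exact_mod_cast h
  linarith

/-- Upper bound by the largest class. -/
theorem yc_le_max {K : ℤ} (h0 : kr ≤ K) (hc : ∀ d, c d ≤ K) : ∀ d, yc c kr m d ≤ K
  | 0 => h0
  | d + 1 => (yc_le d).trans (hc (d + 1))

/-- Lower bound: classes that are nonnegative give a nonnegative chain (`0 ≤ m`). -/
theorem yc_nonneg (h0 : 0 ≤ kr) (hm : 0 ≤ m) (hc : ∀ d, 0 ≤ c d) : ∀ d, 0 ≤ yc c kr m d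
  | 0 => h0
  | d + 1 => le_min (hc (d + 1)) (add_nonneg (yc_nonneg h0 hm hc d) hm)

theorem yc_var_aux (hm : 0 ≤ m) (n : ℕ) :
    ∑ d ∈ range n, |yc c kr m (d + 1) - yc c kr m d| + |c n - yc c kr m n| ≤
      ∑ d ∈ range n, |c (d + 1) - c d| + |kr - c 0| := by
  induction n with
  | zero =>
    simp only [range_zero, sum_empty, yc_zero, zero_add]
    rw [abs_sub_comm]
  | succ n ih =>
    rw [sum_range_succ, sum_range_succ]
    suffices h : |yc c kr m (n + 1) - yc c kr m n| + |c (n + 1) - yc c kr m (n + 1)| ≤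
        |c (n + 1) - c n| + |c n - yc c kr m n| by linarith
    have htri : |c (n + 1) - yc c kr m n| ≤ |c (n + 1) - c n| + |c n - yc c kr m n| :=
      abs_sub_le _ _ _
    rcases le_or_gt (c (n + 1)) (yc c kr m n + m) with h | h
    · have h1 : yc c kr m (n + 1) = c (n + 1) := min_eq_left h
      rw [h1, sub_self, abs_zero, add_zero]
      exact htri
    · have h1 : yc c kr m (n + 1) = yc c kr m n + m := min_eq_right h.le
      rw [h1, add_sub_cancel_left, abs_of_nonneg hm, abs_of_nonneg (by linarith)]
      rw [abs_of_nonneg (by linarith)] at htri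
      linarith

/-- Total variation of the clamped chain. -/
theorem yc_var (hm : 0 ≤ m) (h0 : c 0 ≤ kr) (n : ℕ) :
    ∑ d ∈ range n, |yc c kr m (d + 1) - yc c kr m d| ≤
      ∑ d ∈ range n, |c (d + 1) - c d| + (kr - c 0) := by
  have h := yc_var_aux (c := c) (kr := kr) hm n
  rw [abs_of_nonneg (sub_nonneg.2 h0)] at h
  have := abs_nonneg (c n - yc c kr m n)
  linarith

end Vale.Agent.P315.H499
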